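import Vale.Agent.Lib.P021.Defs

/-! # P021: good rational approximations to `π` give small values of `sin n` -/

namespace Vale.Agent.Lib.P021

open Real

/-- If infinitely many reduced fractions satisfy `|π - p / q| < q ^ (-ν)` with `ν > 1`, then for
every `κ < ν - 1` infinitely many `n` satisfy `|sin n| < n ^ (-κ)`.

Plan.  Suppose `sinSet κ` is finite, so bounded by some `N₁`.  For `(p, q)` in `approxSet ν`:
`|π - p / q| < q ^ (-ν) ≤ 1`, hence `2 q < p < 5 q`.  So if all elements had `q ≤ Q` the set would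
be contained in `Set.Icc (0, 0) (5 Q, Q)`, which is finite; hence there are elements with `q`
as large as we like.  For such an element `abs_sin_int_le p q` gives
`|sin p| ≤ |p - q π| = q |π - p / q| < q ^ (1 - ν) ≤ (p / 5) ^ (-(ν - 1)) = 5 ^ (ν - 1) p ^ (-(ν - 1))
≤ p ^ (-κ)` as soon as `5 ^ (ν - 1) ≤ p ^ (ν - 1 - κ)`, which holds for `p ≥ 2 q` large.  Then
`p.toNat` is in `sinSet κ` and exceeds `N₁`. -/
theorem sinSet_infinite_of_approxSet {ν κ : ℝ} (hν : 1 < ν) (hκ : κ < ν - 1)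
    (h : (approxSet ν).Infinite) : (sinSet κ).Infinite := by
  intro hfin
  obtain ⟨N₁, hN₁⟩ := hfin.bddAbove
  set δ : ℝ := ν - 1 - κ with hδdef
  have hδ : 0 < δ := by rw [hδdef]; linarith
  set P0 : ℝ := ((5 : ℝ) ^ (ν - 1)) ^ δ⁻¹ with hP0
  obtain ⟨Q, hQ⟩ : ∃ Q : ℕ, (N₁ : ℝ) ≤ Q ∧ P0 ≤ Q := by
    obtain ⟨m, hm⟩ := exists_nat_ge P0
    exact ⟨max N₁ m, by exact_mod_cast le_max_left _ _,
      hm.trans (by exact_mod_cast le_max_right _ _)⟩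
  have hbasic : ∀ a ∈ approxSet ν, 2 * (a.2 : ℝ) < a.1 ∧ (a.1 : ℝ) < 5 * a.2 := by
    rintro ⟨p, q⟩ ⟨_, hq2, _, hlt⟩
    simp only at hq2 hlt ⊢
    have hq : (2 : ℝ) ≤ q := by exact_mod_cast hq2
    have hqpos : (0 : ℝ) < q := by linarith
    have h1 : (q : ℝ) ^ (-ν) ≤ 1 :=
      Real.rpow_le_one_of_one_le_of_nonpos (by linarith) (by linarith)
    have h2 : |π - (p : ℝ) / q| < 1 := lt_of_lt_of_le hlt h1
    rw [abs_lt] at h2
    have hpi3 := Real.pi_gt_three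
    have hpi4 := Real.pi_le_four
    constructor
    · have : (2 : ℝ) < (p : ℝ) / q := by linarith [h2.2]
      rwa [lt_div_iff₀ hqpos] at this
    · have : (p : ℝ) / q < 5 := by linarith [h2.1]
      rwa [div_lt_iff₀ hqpos] at this
  have hex : ∃ a ∈ approxSet ν, (Q : ℤ) < a.2 := by
    by_contra hcon
    push Not at hcon
    apply h
    apply (Set.finite_Icc ((0 : ℤ), (0 : ℤ)) ((5 * Q : ℤ), (Q : ℤ))).subset
    intro a ha
    have hb := hbasic a ha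
    have hq2 : (2 : ℤ) ≤ a.2 := ha.2.1
    have hqQ := hcon a ha
    have hq2r : (2 : ℝ) ≤ a.2 := by exact_mod_cast hq2
    have hqQr : (a.2 : ℝ) ≤ Q := by exact_mod_cast hqQ
    have hp0 : (0 : ℝ) ≤ a.1 := by linarith [hb.1]
    have hp5 : (a.1 : ℝ) ≤ 5 * Q := by linarith [hb.2]
    rw [Set.mem_Icc]
    refine ⟨⟨?_, ?_⟩, ⟨?_, ?_⟩⟩
    · show (0 : ℤ) ≤ a.1
      exact_mod_cast hp0
    · show (0 : ℤ) ≤ a.2
      omega
    · show a.1 ≤ 5 * (Q : ℤ)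
      exact_mod_cast hp5
    · exact hqQ
  obtain ⟨⟨p, q⟩, ha, hqQ⟩ := hex
  have hb := hbasic _ ha
  obtain ⟨_, hq2, _, hlt⟩ := ha
  simp only at hq2 hlt hb hqQ
  have hq : (2 : ℝ) ≤ q := by exact_mod_cast hq2
  have hqpos : (0 : ℝ) < q := by linarith
  have hqQr : (Q : ℝ) < q := by exact_mod_cast hqQ
  have hppos : (0 : ℝ) < p := by linarith [hb.1]
  have hpP0 : P0 ≤ p := by linarith [hb.1, hQ.2]
  have hs1 : |sin (p : ℝ)| ≤ |(p : ℝ) - q * π| := abs_sin_int_le p q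
  have hs2 : |(p : ℝ) - q * π| = q * |π - (p : ℝ) / q| := by
    have : (p : ℝ) - q * π = - (q * (π - (p : ℝ) / q)) := by
      field_simp
      ring
    rw [this, abs_neg, abs_mul, abs_of_pos hqpos]
  have hs3 : (q : ℝ) * |π - (p : ℝ) / q| < (q : ℝ) ^ (-(ν - 1)) := by
    have : (q : ℝ) ^ (-(ν - 1)) = q * (q : ℝ) ^ (-ν) := by
      rw [show -(ν - 1) = 1 + -ν by ring, Real.rpow_add hqpos, Real.rpow_one]
    rw [this]
    exact mul_lt_mul_of_pos_left hlt hqpos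
  have hs4 : (q : ℝ) ^ (-(ν - 1)) ≤ ((p : ℝ) / 5) ^ (-(ν - 1)) :=
    Real.rpow_le_rpow_of_nonpos (by positivity) (by linarith [hb.2]) (by linarith)
  have hs5 : ((p : ℝ) / 5) ^ (-(ν - 1)) = (5 : ℝ) ^ (ν - 1) * (p : ℝ) ^ (-(ν - 1)) := by
    rw [Real.div_rpow hppos.le (by norm_num), Real.rpow_neg (by norm_num : (0 : ℝ) ≤ 5),
      div_inv_eq_mul, mul_comm]
  have hs6 : (5 : ℝ) ^ (ν - 1) ≤ (p : ℝ) ^ δ := by
    have h5 : (0 : ℝ) ≤ (5 : ℝ) ^ (ν - 1) := by positivity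
    have : P0 ^ δ = (5 : ℝ) ^ (ν - 1) := Real.rpow_inv_rpow h5 hδ.ne'
    rw [← this]
    exact Real.rpow_le_rpow (by positivity) hpP0 hδ.le
  have hs7 : (p : ℝ) ^ (-κ) = (p : ℝ) ^ δ * (p : ℝ) ^ (-(ν - 1)) := by
    rw [← Real.rpow_add hppos]
    congr 1
    rw [hδdef]
    ring
  have hfinal : |sin (p : ℝ)| < (p : ℝ) ^ (-κ) := by
    calc |sin (p : ℝ)| ≤ q * |π - (p : ℝ) / q| := by rw [← hs2]; exact hs1
      _ < (q : ℝ) ^ (-(ν - 1)) := hs3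
      _ ≤ (5 : ℝ) ^ (ν - 1) * (p : ℝ) ^ (-(ν - 1)) := by rw [← hs5]; exact hs4
      _ ≤ (p : ℝ) ^ δ * (p : ℝ) ^ (-(ν - 1)) :=
          mul_le_mul_of_nonneg_right hs6 (by positivity)
      _ = (p : ℝ) ^ (-κ) := hs7.symm
  have hpz : 0 ≤ p := by exact_mod_cast hppos.le
  have hcast : ((p.toNat : ℕ) : ℝ) = (p : ℝ) := by
    have : ((p.toNat : ℕ) : ℤ) = p := Int.toNat_of_nonneg hpz
    exact_mod_cast this
  have hmem : p.toNat ∈ sinSet κ := by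
    show |sin ((p.toNat : ℕ) : ℝ)| < ((p.toNat : ℕ) : ℝ) ^ (-κ)
    rw [hcast]
    exact hfinal
  have hle := hN₁ hmem
  have hle' : ((p.toNat : ℕ) : ℝ) ≤ N₁ := by exact_mod_cast hle
  rw [hcast] at hle'
  linarith [hb.1, hQ.1]

end Vale.Agent.Lib.P021
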