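import Mathlib

/-!
# P021: rational approximations to `π` and small values of `sin n`

`approxSet ν` is the set of reduced fractions `p / q`, `q ≥ 2`, with `0 < |π - p / q| < q ^ (-ν)`;
`sinSet κ` is the set of natural numbers `n` with `|sin n| < n ^ (-κ)`.
-/

namespace Vale.Agent.Lib.P021

open Real

/-- coprime pairs `(p, q)`, `q ≥ 2`, with `0 < |π - p / q| < q ^ (-ν)` -/
def approxSet (ν : ℝ) : Set (ℤ × ℤ) :=
  {a | IsCoprime a.1 a.2 ∧ 2 ≤ a.2 ∧ 0 < |π - (a.1 : ℝ) / (a.2 : ℝ)| ∧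
    |π - (a.1 : ℝ) / (a.2 : ℝ)| < (a.2 : ℝ) ^ (-ν)}

/-- natural numbers `n` with `|sin n| < n ^ (-κ)` -/
def sinSet (κ : ℝ) : Set ℕ := {n | |sin (n : ℝ)| < (n : ℝ) ^ (-κ)}

/-- `|sin n| ≤ |n - m π|` -/
theorem abs_sin_int_le (n m : ℤ) : |sin (n : ℝ)| ≤ |(n : ℝ) - m * π| := by
  have h : |sin ((n : ℝ) - m * π)| = |sin (n : ℝ)| := by
    rw [Real.sin_sub_int_mul_pi, abs_mul, abs_zpow, abs_neg, abs_one, one_zpow, one_mul]
  rw [← h]
  exact Real.abs_sin_le_abs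

/-- Jordan: the nearest multiple of `π` -/
theorem exists_near (n : ℤ) : ∃ m : ℤ, |(n : ℝ) - m * π| ≤ π / 2 ∧
    2 / π * |(n : ℝ) - m * π| ≤ |sin (n : ℝ)| := by
  have hpi := Real.pi_pos
  refine ⟨round ((n : ℝ) / π), ?_⟩
  set m := round ((n : ℝ) / π) with hm
  have h1 : |(n : ℝ) / π - m| ≤ 1 / 2 := abs_sub_round _
  have h2 : (n : ℝ) - m * π = ((n : ℝ) / π - m) * π := by field_simp
  have h3 : |(n : ℝ) - m * π| ≤ π / 2 := by
    rw [h2, abs_mul, abs_of_pos hpi]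
    nlinarith
  refine ⟨h3, ?_⟩
  have h : |sin ((n : ℝ) - m * π)| = |sin (n : ℝ)| := by
    rw [Real.sin_sub_int_mul_pi, abs_mul, abs_zpow, abs_neg, abs_one, one_zpow, one_mul]
  rw [← h]
  set y := (n : ℝ) - m * π
  rcases le_total 0 y with hy | hy
  · rw [abs_of_nonneg hy] at h3 ⊢
    exact (Real.mul_le_sin hy h3).trans (le_abs_self _)
  · rw [abs_of_nonpos hy] at h3 ⊢
    have := Real.mul_le_sin (neg_nonneg.2 hy) h3
    rw [Real.sin_neg] at this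
    exact this.trans (neg_le_abs _)

end Vale.Agent.Lib.P021
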