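import Vale.Agent.Lib.P021.Defs

/-! # P021: small values of `sin n` give good rational approximations to `π` -/

namespace Vale.Agent.Lib.P021

open Real

theorem approxSet_infinite_of_sinSet {ν κ : ℝ} (hκ : 0 < κ) (hν0 : 0 < ν) (hν : ν < 1 + κ)
    (h : (sinSet κ).Infinite) : (approxSet ν).Infinite := by
  intro hfin
  obtain ⟨δ, hδ, hδle⟩ : ∃ δ : ℝ, 0 < δ ∧
      ∀ a ∈ approxSet ν, δ ≤ |π - (a.1 : ℝ) / (a.2 : ℝ)| := by
    rcases (approxSet ν).eq_empty_or_nonempty with he | hne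
    · exact ⟨1, one_pos, by simp [he]⟩
    · obtain ⟨a, ha, hmin⟩ := Set.exists_min_image _
        (fun a : ℤ × ℤ => |π - (a.1 : ℝ) / (a.2 : ℝ)|) hfin hne
      exact ⟨_, ha.2.2.1, hmin⟩
  have hηpos : 0 < 1 + κ - ν := by linarith
  have ht : Filter.Tendsto (fun x : ℝ => x ^ (1 + κ - ν)) Filter.atTop Filter.atTop :=
    tendsto_rpow_atTop hηpos
  obtain ⟨M1, hM1⟩ := (Filter.tendsto_atTop_atTop.1 ht) 3
  obtain ⟨M0, hM0⟩ := exists_nat_gt (max M1 (max (2 / δ) 20))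
  have hM0a : M1 < (M0 : ℝ) := lt_of_le_of_lt (le_max_left _ _) hM0
  have hM0b : 2 / δ < (M0 : ℝ) :=
    lt_of_le_of_lt ((le_max_left _ _).trans (le_max_right _ _)) hM0
  have hM0c : (20 : ℝ) < (M0 : ℝ) :=
    lt_of_le_of_lt ((le_max_right _ _).trans (le_max_right _ _)) hM0
  obtain ⟨n, hn, hnM⟩ := h.exists_gt (4 * M0 + 4)
  obtain ⟨m, hm1, hm2⟩ := exists_near (n : ℤ)
  have hnR : (4 : ℝ) * M0 + 4 < (n : ℝ) := by exact_mod_cast hnM
  have hpi3 := Real.pi_gt_d2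
  have hpi4 := Real.pi_lt_d2
  have hpos := Real.pi_pos
  simp only [Int.cast_natCast] at hm1 hm2
  have hsin : |sin (n : ℝ)| < (n : ℝ) ^ (-κ) := hn
  have habs := abs_le.1 hm1
  -- size of `m`
  have hmlow : (M0 : ℝ) < (m : ℝ) := by nlinarith [habs.1, habs.2]
  have hmpos : (0 : ℝ) < (m : ℝ) := by linarith
  have hmn : (m : ℝ) ≤ (n : ℝ) := by nlinarith [habs.1, habs.2]
  have hm1' : (1 : ℝ) ≤ (m : ℝ) := by linarith
  have hnpos : (0 : ℝ) < (n : ℝ) := by linarith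
  -- the bound on `x`
  have hx : |(n : ℝ) - m * π| < 2 * (m : ℝ) ^ (-κ) := by
    have h1 : (n : ℝ) ^ (-κ) ≤ (m : ℝ) ^ (-κ) :=
      (rpow_le_rpow_iff_of_neg hnpos hmpos (by linarith)).2 hmn
    have h2 : 2 / π * |(n : ℝ) - m * π| < (m : ℝ) ^ (-κ) := lt_of_le_of_lt hm2 (hsin.trans_le h1)
    have h3 : |(n : ℝ) - m * π| = π / 2 * (2 / π * |(n : ℝ) - m * π|) := by field_simp
    have h4 : 0 < (m : ℝ) ^ (-κ) := rpow_pos_of_pos hmpos _
    rw [h3]
    nlinarith [abs_nonneg ((n : ℝ) - m * π)]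
  have hdist : |π - (n : ℝ) / (m : ℝ)| = |(n : ℝ) - m * π| / m := by
    have : π - (n : ℝ) / (m : ℝ) = -((n : ℝ) - m * π) / m := by field_simp; ring
    rw [this, abs_div, abs_neg, abs_of_pos hmpos]
  have hd1 : |π - (n : ℝ) / (m : ℝ)| < 2 * (m : ℝ) ^ (-κ) / m := by
    rw [hdist]
    exact div_lt_div_of_pos_right hx hmpos
  have hd2 : |π - (n : ℝ) / (m : ℝ)| < 2 / m := by
    refine hd1.trans_le ?_
    have : (m : ℝ) ^ (-κ) ≤ 1 := rpow_le_one_of_one_le_of_nonpos hm1' (by linarith)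
    gcongr
    linarith
  have hd3 : |π - (n : ℝ) / (m : ℝ)| < (m : ℝ) ^ (-ν) := by
    refine hd1.trans ?_
    have h3 : (3 : ℝ) ≤ (m : ℝ) ^ (1 + κ - ν) := hM1 _ (by linarith)
    have h4 : (m : ℝ) ^ (-ν) = (m : ℝ) ^ (1 + κ - ν) * ((m : ℝ) ^ (-κ) / m) := by
      have : (m : ℝ) ^ (-κ) / m = (m : ℝ) ^ (-κ - 1) := by
        rw [rpow_sub hmpos, rpow_one]
      rw [this, ← rpow_add hmpos]
      congr 1
      ring
    have h5 : 0 < (m : ℝ) ^ (-κ) / m := div_pos (rpow_pos_of_pos hmpos _) hmpos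
    rw [h4, mul_div_assoc]
    nlinarith
  -- the reduced fraction
  set r : ℚ := Rat.divInt (n : ℤ) m with hr
  have hrR : (r : ℝ) = (n : ℝ) / (m : ℝ) := by
    rw [hr, Rat.divInt_eq_div]
    push_cast
    rfl
  have hrR' : (n : ℝ) / (m : ℝ) = ((r.num : ℤ) : ℝ) / (((r.den : ℤ)) : ℝ) := by
    rw [← hrR, Rat.cast_def]
    push_cast
    rfl
  have hdvd : ((r.den : ℤ)) ∣ m := Rat.den_dvd _ _
  have hmposZ : 0 < m := by exact_mod_cast hmpos
  have hqm : (r.den : ℤ) ≤ m := Int.le_of_dvd hmposZ hdvd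
  have hqmR : (((r.den : ℤ)) : ℝ) ≤ (m : ℝ) := by exact_mod_cast hqm
  have hqpos : (0 : ℝ) < (((r.den : ℤ)) : ℝ) := by exact_mod_cast r.den_pos
  have hmem : (r.num, (r.den : ℤ)) ∈ approxSet ν := by
    refine ⟨Rat.isCoprime_num_den r, ?_, ?_, ?_⟩
    · -- `2 ≤ q`
      by_contra hlt
      have hq1 : r.den = 1 := by
        have := r.den_pos
        simp only [not_le] at hlt
        omega
      have hd : |π - (r.num : ℝ)| < 2 / m := by
        have := hd2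
        rw [hrR', hq1] at this
        simpa using this
      have h20 : 2 / (m : ℝ) < 1 / 10 := by
        rw [div_lt_div_iff₀ hmpos (by norm_num)]
        linarith
      have hd' := abs_lt.1 (hd.trans h20)
      rcases le_or_gt r.num 3 with h3 | h3
      · have : (r.num : ℝ) ≤ 3 := by exact_mod_cast h3
        linarith [hd'.2]
      · have : (4 : ℝ) ≤ (r.num : ℝ) := by exact_mod_cast h3
        linarith [hd'.1]
    · show 0 < |π - ((r.num : ℤ) : ℝ) / (((r.den : ℤ)) : ℝ)|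
      rw [← hrR', ← hrR]
      exact abs_pos.2 (sub_ne_zero.2 (irrational_pi.ne_rat r))
    · show |π - ((r.num : ℤ) : ℝ) / (((r.den : ℤ)) : ℝ)| < (((r.den : ℤ)) : ℝ) ^ (-ν)
      rw [← hrR']
      refine hd3.trans_le ?_
      exact (rpow_le_rpow_iff_of_neg hmpos hqpos (by linarith)).2 hqmR
  have h1 := hδle _ hmem
  have h2 : |π - ((r.num : ℤ) : ℝ) / (((r.den : ℤ)) : ℝ)| < 2 / m := by
    rw [← hrR']
    exact hd2
  have h3 : 2 / (m : ℝ) < δ := by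
    rw [div_lt_iff₀ hmpos]
    rw [div_lt_iff₀ hδ] at hM0b
    nlinarith
  have h1' : δ ≤ |π - ((r.num : ℤ) : ℝ) / (((r.den : ℤ)) : ℝ)| := h1
  linarith

end Vale.Agent.Lib.P021
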